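import Mathlib

/-! # P097 / H128 : a table whose Lazutkin invariant `q` is constant is an ellipse

`ρ = h + h''`, `v = ρ^(-2/3)`. If `v'' + 4 v` is constant, `h` is the support function of an
ellipse. (With `g = dψ/dx` for the Lazutkin parameter `x`, `v = g²` up to a constant and
`v'' + 4 v = 2 (g_xx / g + 2 g²)`.) -/

set_option linter.all false

namespace Vale.Agent.P097.H128

open Real

/-- solutions of `u'' + ω² u = 0` -/
lemma harmonic_osc {u : ℝ → ℝ} {ω : ℝ} (hω : ω ≠ 0) (h1 : Differentiable ℝ u)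
    (h2 : Differentiable ℝ (deriv u)) (h : ∀ x, deriv (deriv u) x + ω ^ 2 * u x = 0) (x : ℝ) :
    u x = u 0 * cos (ω * x) + deriv u 0 / ω * sin (ω * x) := by
  have hd1 : ∀ x, HasDerivAt u (deriv u x) x := fun x => (h1 x).hasDerivAt
  have hd2 : ∀ x, HasDerivAt (deriv u) (-(ω ^ 2 * u x)) x := fun x => by
    have := (h2 x).hasDerivAt
    rwa [show deriv (deriv u) x = -(ω ^ 2 * u x) by linarith [h x]] at this
  have hs : ∀ x, HasDerivAt (fun x => sin (ω * x)) (cos (ω * x) * ω) x := fun x => by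
    have := ((hasDerivAt_id x).const_mul ω).sin
    simpa using this
  have hc : ∀ x, HasDerivAt (fun x => cos (ω * x)) (-(sin (ω * x) * ω)) x := fun x => by
    have := ((hasDerivAt_id x).const_mul ω).cos
    simpa using this
  have k1 : ∀ x, u x * cos (ω * x) - deriv u x / ω * sin (ω * x) = u 0 := by
    intro x
    have hconst : ∀ x, HasDerivAt
        (fun x => u x * cos (ω * x) - deriv u x / ω * sin (ω * x)) 0 x := fun x => by
      refine (((hd1 x).mul (hc x)).sub (((hd2 x).div_const ω).mul (hs x))).congr_deriv ?_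
      field_simp
      ring
    have := is_const_of_deriv_eq_zero (fun x => (hconst x).differentiableAt)
      (fun x => (hconst x).deriv) x 0
    simpa using this
  have k2 : ∀ x, u x * sin (ω * x) + deriv u x / ω * cos (ω * x) = deriv u 0 / ω := by
    intro x
    have hconst : ∀ x, HasDerivAt
        (fun x => u x * sin (ω * x) + deriv u x / ω * cos (ω * x)) 0 x := fun x => by
      refine (((hd1 x).mul (hs x)).add (((hd2 x).div_const ω).mul (hc x))).congr_deriv ?_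
      field_simp
      ring
    have := is_const_of_deriv_eq_zero (fun x => (hconst x).differentiableAt)
      (fun x => (hconst x).deriv) x 0
    simpa using this
  have hcs := sin_sq_add_cos_sq (ω * x)
  linear_combination (cos (ω * x)) * k1 x + sin (ω * x) * k2 x - u x * hcs

/-- amplitude and phase -/
lemma exists_phase (A B : ℝ) : ∃ Q φ : ℝ, 0 ≤ Q ∧ ∀ x : ℝ,
    A * cos (2 * x) + B * sin (2 * x) = Q * cos (2 * (x - φ)) := by
  refine ⟨‖(⟨A, B⟩ : ℂ)‖, Complex.arg ⟨A, B⟩ / 2, norm_nonneg _, fun x => ?_⟩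
  have h1 := Complex.norm_mul_cos_arg (⟨A, B⟩ : ℂ)
  have h2 := Complex.norm_mul_sin_arg (⟨A, B⟩ : ℂ)
  simp only at h1 h2
  rw [show 2 * (x - Complex.arg ⟨A, B⟩ / 2) = 2 * x - Complex.arg ⟨A, B⟩ by ring, cos_sub]
  linear_combination -cos (2 * x) * h1 - sin (2 * x) * h2

/-- the radius of curvature of an ellipse -/
lemma ellipse_curv {a b φ : ℝ} (ha : 0 < a) (hb : 0 < b) :
    Differentiable ℝ (fun ψ => √(a ^ 2 * cos (ψ - φ) ^ 2 + b ^ 2 * sin (ψ - φ) ^ 2)) ∧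
    Differentiable ℝ (deriv (fun ψ => √(a ^ 2 * cos (ψ - φ) ^ 2 + b ^ 2 * sin (ψ - φ) ^ 2))) ∧
    ∀ ψ, √(a ^ 2 * cos (ψ - φ) ^ 2 + b ^ 2 * sin (ψ - φ) ^ 2) +
      deriv (deriv (fun ψ => √(a ^ 2 * cos (ψ - φ) ^ 2 + b ^ 2 * sin (ψ - φ) ^ 2))) ψ =
      a ^ 2 * b ^ 2 / √(a ^ 2 * cos (ψ - φ) ^ 2 + b ^ 2 * sin (ψ - φ) ^ 2) ^ 3 := by
  set R : ℝ → ℝ := fun ψ => a ^ 2 * cos (ψ - φ) ^ 2 + b ^ 2 * sin (ψ - φ) ^ 2 with hR
  have hRpos : ∀ ψ, 0 < R ψ := by
    intro ψ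
    have hcs := sin_sq_add_cos_sq (ψ - φ)
    simp only [hR]
    rcases le_total (1 / 2) (cos (ψ - φ) ^ 2) with h | h
    · have : 0 < a ^ 2 * cos (ψ - φ) ^ 2 := by positivity
      positivity
    · have : 0 < sin (ψ - φ) ^ 2 := by linarith
      positivity
  have hc : ∀ x, HasDerivAt (fun x => cos (x - φ)) (-sin (x - φ)) x := fun x => by
    have := ((hasDerivAt_id x).sub_const φ).cos
    simpa using this
  have hs : ∀ x, HasDerivAt (fun x => sin (x - φ)) (cos (x - φ)) x := fun x => by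
    have := ((hasDerivAt_id x).sub_const φ).sin
    simpa using this
  have hR1 : ∀ x, HasDerivAt R (2 * (b ^ 2 - a ^ 2) * (sin (x - φ) * cos (x - φ))) x := fun x => by
    refine ((((hc x).pow 2).const_mul (a ^ 2)).add (((hs x).pow 2).const_mul (b ^ 2))).congr_deriv ?_
    simp
    ring
  have hR2 : ∀ x, HasDerivAt (fun x => 2 * (b ^ 2 - a ^ 2) * (sin (x - φ) * cos (x - φ)))
      (2 * (b ^ 2 - a ^ 2) * (cos (x - φ) ^ 2 - sin (x - φ) ^ 2)) x := fun x => by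
    refine (((hs x).mul (hc x)).const_mul (2 * (b ^ 2 - a ^ 2))).congr_deriv ?_
    ring
  have hS1 : ∀ x, HasDerivAt (fun x => √(R x))
      (2 * (b ^ 2 - a ^ 2) * (sin (x - φ) * cos (x - φ)) / (2 * √(R x))) x := fun x =>
    (hR1 x).sqrt (hRpos x).ne'
  have hdS : deriv (fun x => √(R x)) =
      fun x => 2 * (b ^ 2 - a ^ 2) * (sin (x - φ) * cos (x - φ)) / (2 * √(R x)) := by
    funext x
    exact (hS1 x).deriv
  have hsq : ∀ x, 0 < √(R x) := fun x => sqrt_pos.2 (hRpos x)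
  have hS2 : ∀ x, HasDerivAt
      (fun x => 2 * (b ^ 2 - a ^ 2) * (sin (x - φ) * cos (x - φ)) / (2 * √(R x)))
      ((2 * (b ^ 2 - a ^ 2) * (cos (x - φ) ^ 2 - sin (x - φ) ^ 2) * (2 * √(R x)) -
        2 * (b ^ 2 - a ^ 2) * (sin (x - φ) * cos (x - φ)) *
          (2 * (2 * (b ^ 2 - a ^ 2) * (sin (x - φ) * cos (x - φ)) / (2 * √(R x))))) /
        (2 * √(R x)) ^ 2) x := fun x => by
    exact (hR2 x).div ((hS1 x).const_mul 2) (by have := hsq x; positivity)
  refine ⟨fun x => (hS1 x).differentiableAt, ?_, fun ψ => ?_⟩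
  · rw [hdS]
    exact fun x => (hS2 x).differentiableAt
  · rw [hdS, (hS2 ψ).deriv]
    have hp := hsq ψ
    have hsqr : √(R ψ) ^ 2 = R ψ := sq_sqrt (hRpos ψ).le
    have hcs := sin_sq_add_cos_sq (ψ - φ)
    show √(R ψ) + _ = a ^ 2 * b ^ 2 / √(R ψ) ^ 3
    rw [eq_div_iff (by positivity)]
    have key : 4 * R ψ ^ 2 + 2 * R ψ * (2 * (b ^ 2 - a ^ 2) * (cos (ψ - φ) ^ 2 - sin (ψ - φ) ^ 2))
        - (2 * (b ^ 2 - a ^ 2) * (sin (ψ - φ) * cos (ψ - φ))) ^ 2 = 4 * (a ^ 2 * b ^ 2) := by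
      simp only [hR]
      have hC : cos (ψ - φ) ^ 2 = 1 - sin (ψ - φ) ^ 2 := by linarith
      linear_combination (4 * a ^ 2 * b ^ 2 * (sin (ψ - φ) ^ 2 + cos (ψ - φ) ^ 2 + 1)) * hcs
    generalize hr : √(R ψ) = r at *
    generalize hX : 2 * (b ^ 2 - a ^ 2) * (cos (ψ - φ) ^ 2 - sin (ψ - φ) ^ 2) = X at *
    generalize hY : 2 * (b ^ 2 - a ^ 2) * (sin (ψ - φ) * cos (ψ - φ)) = Y at *
    rw [← hsqr] at key
    field_simp
    linear_combination key

/-- **A table with constant `v'' + 4 v`, `v = ρ^(-2/3)`, is an ellipse.** -/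
theorem conic_of_const {h v : ℝ → ℝ} {c : ℝ} (h1 : Differentiable ℝ h)
    (h2 : Differentiable ℝ (deriv h)) (v1 : Differentiable ℝ v) (v2 : Differentiable ℝ (deriv v))
    (vpos : ∀ ψ, 0 < v ψ) (hrel : ∀ ψ, (h ψ + deriv (deriv h) ψ) * √(v ψ) ^ 3 = 1)
    (hc : ∀ ψ, deriv (deriv v) ψ + 4 * v ψ = c) :
    ∃ a b φ p q : ℝ, 0 < a ∧ 0 < b ∧ h = fun ψ => p * cos ψ + q * sin ψ +
      √(a ^ 2 * cos (ψ - φ) ^ 2 + b ^ 2 * sin (ψ - φ) ^ 2) := by
  -- the form of `v`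
  have dw : deriv (fun ψ => v ψ - c / 4) = deriv v := by
    funext x
    exact deriv_sub_const _
  have hv : ∀ ψ, v ψ = c / 4 + (v 0 - c / 4) * cos (2 * ψ) + deriv v 0 / 2 * sin (2 * ψ) := by
    intro ψ
    have := harmonic_osc (u := fun ψ => v ψ - c / 4) (ω := 2) (by norm_num)
      (v1.sub_const _) (by rw [dw]; exact v2) (fun x => by rw [dw]; linarith [hc x]) ψ
    rw [dw] at this
    linarith
  obtain ⟨Q, φ, hQ, hph⟩ := exists_phase (v 0 - c / 4) (deriv v 0 / 2)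
  have hv' : ∀ ψ, v ψ = c / 4 + Q * cos (2 * (ψ - φ)) := by
    intro ψ
    rw [hv ψ, ← hph ψ]
    ring
  have hβ : 0 < c / 4 - Q := by
    have := vpos (φ + π / 2)
    rw [hv' (φ + π / 2), show 2 * (φ + π / 2 - φ) = π by ring, cos_pi] at this
    linarith
  have hα : 0 < c / 4 + Q := by linarith
  set α := c / 4 + Q with hαd
  set β := c / 4 - Q with hβd
  have hv3 : ∀ ψ, v ψ = α * cos (ψ - φ) ^ 2 + β * sin (ψ - φ) ^ 2 := by
    intro ψ
    rw [hv' ψ, cos_two_mul]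
    have hcs := sin_sq_add_cos_sq (ψ - φ)
    linear_combination -(c / 4 - Q) * hcs
  -- the ellipse
  set a := √α / (α * β) with had
  set b := √β / (α * β) with hbd
  have ha : 0 < a := by have := sqrt_pos.2 hα; positivity
  have hb : 0 < b := by have := sqrt_pos.2 hβ; positivity
  have ha2 : a ^ 2 = α / (α * β) ^ 2 := by rw [had, div_pow, sq_sqrt hα.le]
  have hb2 : b ^ 2 = β / (α * β) ^ 2 := by rw [hbd, div_pow, sq_sqrt hβ.le]
  obtain ⟨e1, e2, e3⟩ := ellipse_curv (φ := φ) ha hb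
  set s : ℝ → ℝ := fun ψ => √(a ^ 2 * cos (ψ - φ) ^ 2 + b ^ 2 * sin (ψ - φ) ^ 2) with hs
  have hsv : ∀ ψ, s ψ = √(v ψ) / (α * β) := by
    intro ψ
    simp only [hs]
    rw [ha2, hb2, show α / (α * β) ^ 2 * cos (ψ - φ) ^ 2 + β / (α * β) ^ 2 * sin (ψ - φ) ^ 2 =
      v ψ / (α * β) ^ 2 by rw [hv3 ψ]; ring, sqrt_div (vpos ψ).le, sqrt_sq (by positivity)]
  have hcurv : ∀ ψ, s ψ + deriv (deriv s) ψ = h ψ + deriv (deriv h) ψ := by
    intro ψ
    have e := e3 ψ
    change s ψ + deriv (deriv s) ψ = a ^ 2 * b ^ 2 / s ψ ^ 3 at e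
    rw [e, ha2, hb2, hsv ψ]
    have hp : 0 < √(v ψ) := sqrt_pos.2 (vpos ψ)
    have hr := hrel ψ
    have : h ψ + deriv (deriv h) ψ = 1 / √(v ψ) ^ 3 := by
      rw [eq_div_iff (by positivity)]
      exact hr
    rw [this]
    field_simp
  -- the difference
  have du : deriv (fun ψ => h ψ - s ψ) = fun ψ => deriv h ψ - deriv s ψ := by
    funext x
    exact deriv_sub (h1 x) (e1 x)
  have hu : ∀ ψ, h ψ - s ψ = (h 0 - s 0) * cos ψ + (deriv h 0 - deriv s 0) * sin ψ := by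
    intro ψ
    have := harmonic_osc (u := fun ψ => h ψ - s ψ) (ω := 1) one_ne_zero (h1.sub e1)
      (by rw [du]; exact h2.sub e2) (fun x => by
        rw [du]
        have : deriv (fun ψ => deriv h ψ - deriv s ψ) x = deriv (deriv h) x - deriv (deriv s) x :=
          deriv_sub (h2 x) (e2 x)
        rw [this]
        linarith [hcurv x]) ψ
    rw [du] at this
    simpa using this
  refine ⟨a, b, φ, h 0 - s 0, deriv h 0 - deriv s 0, ha, hb, funext fun ψ => ?_⟩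
  have := hu ψ
  show h ψ = _ + s ψ
  linarith

end Vale.Agent.P097.H128
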